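import Vale.Agent.P062.Tree

namespace Vale.Agent.P062

theorem ok8 : T.all (chk tree) t8 = true := by decide +kernel

theorem ok9 : T.all (chk tree) t9 = true := by decide +kernel

theorem ok10 : T.all (chk tree) t10 = true := by decide +kernel

theorem ok11 : T.all (chk tree) t11 = true := by decide +kernel

theorem ok12 : T.all (chk tree) t12 = true := by decide +kernel

theorem ok13 : T.all (chk tree) t13 = true := by decide +kernel

theorem ok14 : T.all (chk tree) t14 = true := by decide +kernel

theorem ok15 : T.all (chk tree) t15 = true := by decide +kernel

end Vale.Agent.P062
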