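import Vale.Agent.P062.Tree

namespace Vale.Agent.P062

theorem ok16 : T.all (chk tree) t16 = true := by decide +kernel

theorem ok17 : T.all (chk tree) t17 = true := by decide +kernel

theorem ok18 : T.all (chk tree) t18 = true := by decide +kernel

theorem ok19 : T.all (chk tree) t19 = true := by decide +kernel

theorem ok20 : T.all (chk tree) t20 = true := by decide +kernel

theorem ok21 : T.all (chk tree) t21 = true := by decide +kernel

theorem ok22 : T.all (chk tree) t22 = true := by decide +kernel

theorem ok23 : T.all (chk tree) t23 = true := by decide +kernel

end Vale.Agent.P062
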