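import Vale.Agent.P062.Tree

namespace Vale.Agent.P062

theorem ok24 : T.all (chk tree) t24 = true := by decide +kernel

theorem ok25 : T.all (chk tree) t25 = true := by decide +kernel

theorem ok26 : T.all (chk tree) t26 = true := by decide +kernel

theorem ok27 : T.all (chk tree) t27 = true := by decide +kernel

theorem ok28 : T.all (chk tree) t28 = true := by decide +kernel

theorem ok29 : T.all (chk tree) t29 = true := by decide +kernel

theorem ok30 : T.all (chk tree) t30 = true := by decide +kernel

theorem ok31 : T.all (chk tree) t31 = true := by decide +kernel

end Vale.Agent.P062
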