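import Vale.Agent.P062.Ok0
import Vale.Agent.P062.Ok1
import Vale.Agent.P062.Ok2
import Vale.Agent.P062.Ok3

namespace Vale.Agent.P062

theorem okAll : T.all (chk tree) tree = true :=
  (T.all_n (T.all_n (T.all_n (T.all_n (T.all_n ok0 ok16) (T.all_n ok8 ok24)) (T.all_n (T.all_n ok4 ok20) (T.all_n ok12 ok28))) (T.all_n (T.all_n (T.all_n ok2 ok18) (T.all_n ok10 ok26)) (T.all_n (T.all_n ok6 ok22) (T.all_n ok14 ok30)))) (T.all_n (T.all_n (T.all_n (T.all_n ok1 ok17) (T.all_n ok9 ok25)) (T.all_n (T.all_n ok5 ok21) (T.all_n ok13 ok29))) (T.all_n (T.all_n (T.all_n ok3 ok19) (T.all_n ok11 ok27)) (T.all_n (T.all_n ok7 ok23) (T.all_n ok15 ok31)))))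

theorem win : Win 19 ∅ ∅ :=
  win_of tree okAll 5269 19 (by decide +kernel) (by decide +kernel)

end Vale.Agent.P062
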