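import Vale.Agent.P062.Game

namespace Vale.Agent.P062

/-- Binary trees of coded cards. -/
inductive T where
  | l (n : Nat) : T
  | n (a b : T) : T

noncomputable def T.get (t : T) : Nat → Nat :=
  T.rec (fun n _ => n) (fun _ _ ga gb i =>
    cond (Nat.beq (Nat.mod i 2) 0) (ga (Nat.div i 2)) (gb (Nat.div i 2))) t

noncomputable def T.all (f : Nat → Bool) (t : T) : Bool :=
  T.rec (fun n => f n) (fun _ _ a b => and a b) t

lemma T.all_get {f : Nat → Bool} {t : T} (h : T.all f t = true) (i : Nat) : f (t.get i) = true := by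
  induction t generalizing i with
  | l n => exact h
  | n a b iha ihb =>
    have h' : (T.all f a && T.all f b) = true := h
    rw [Bool.and_eq_true] at h'
    show f (cond (Nat.beq (Nat.mod i 2) 0) (a.get (Nat.div i 2)) (b.get (Nat.div i 2))) = true
    cases Nat.beq (Nat.mod i 2) 0
    · exact ihb h'.2 _
    · exact iha h'.1 _

lemma T.all_n {f : Nat → Bool} {a b : T} (ha : T.all f a = true) (hb : T.all f b = true) :
    T.all f (T.n a b) = true := by
  show (T.all f a && T.all f b) = true
  rw [ha, hb]; rfl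

def sub (a b : Nat) : Bool := Nat.beq (Nat.land a b) a

lemma sub_spec {a b : Nat} (h : sub a b = true) (i : Nat) (hi : a.testBit i) : b.testBit i := by
  have h1 : a &&& b = a := Nat.eq_of_beq_eq_true h
  have : (a &&& b).testBit i = true := by rw [h1]; exact hi
  rw [Nat.testBit_and] at this
  simp at this
  exact this.2

/-- one coordinate: `o ± x`. -/
def co (fl : Bool) (o : Nat) : Nat → Nat := cond fl (fun x => Nat.sub o x) (fun x => Nat.add o x)

def one (fx fy : Nat → Nat) (ih : Nat → Nat → Nat) (mask acc i : Nat) : Nat :=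
  cond (and (Nat.ble 32 (fx i)) (and (Nat.ble (fx i) 49) (Nat.ble 32 (fy i))))
    (ih (Nat.xor mask (Nat.shiftLeft 1 i))
      (Nat.lor acc (Nat.shiftLeft 1 (Nat.sub (Nat.add (Nat.mul (fy i) 18) (fx i)) 608))))
    (Nat.shiftLeft 1 600)

def tab : Nat := 2132153526847810076533983801915430164348791640853830812906930241559421100447377488670573155261973369083456243695300663371065096582601400861362278061040661971982497397038525968563963822047415217857130304862259448904602969876933858516007440937751742681392290412790027189503102733681680673406345510706641497265019560373232915838999039085903298625276146202272918214910854543322068950580724060362499867950698059607467179469087903145778953132472391511249456151646828997145327485564389021579490726090530008024617385664405667985629566677550102894631948141847456858577786421138018892437537152915850248427320859179222650616341625463411775810910351525413925530614499978823810600661460222622496886457274635624440830935355854417883016334073577201752798915172841875279273958694965538508209719689311721318519347593197602094174277103522029536021898648648031967835688901279744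

/-- index of the lowest set bit (its correctness is not needed). -/
def low (mask : Nat) : Nat :=
  Nat.mod (Nat.shiftRight tab
    (Nat.mul 9 (Nat.mod (Nat.xor mask (Nat.land mask (Nat.sub mask 1))) 317))) 512

noncomputable def trr (fx fy : Nat → Nat) (fuel : Nat) : Nat → Nat → Nat :=
  Nat.rec (fun _ _ => Nat.shiftLeft 1 600)
    (fun _ ih mask acc => cond (Nat.beq mask 0) acc (one fx fy ih mask acc (low mask))) fuel

lemma tb_one (i j : Nat) : (Nat.shiftLeft 1 i).testBit j = decide (i = j) := by
  show (1 <<< i).testBit j = _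
  rw [Nat.one_shiftLeft, Nat.testBit_two_pow]

lemma tb_lor (a b j : Nat) : (Nat.lor a b).testBit j = (a.testBit j || b.testBit j) :=
  Nat.testBit_or a b j

lemma tb_land (a b j : Nat) : (Nat.land a b).testBit j = (a.testBit j && b.testBit j) :=
  Nat.testBit_and a b j

lemma tb_xor (a b j : Nat) : (Nat.xor a b).testBit j = (a.testBit j ^^ b.testBit j) :=
  Nat.testBit_xor a b j

lemma tb_poison : (Nat.shiftLeft 1 600).testBit 600 = true := by
  rw [tb_one]; exact decide_eq_true rfl

lemma trr_zero (fx fy : Nat → Nat) (mask acc : Nat) : trr fx fy 0 mask acc = Nat.shiftLeft 1 600 :=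
  rfl

lemma trr_succ (fx fy : Nat → Nat) (f mask acc : Nat) : trr fx fy (f + 1) mask acc =
    cond (Nat.beq mask 0) acc (one fx fy (trr fx fy f) mask acc (low mask)) := rfl

lemma one_spec (fx fy : Nat → Nat) (ih : Nat → Nat → Nat) (mask acc k : Nat)
    (h : ¬ (one fx fy ih mask acc k).testBit 600) : 32 ≤ fx k ∧ fx k ≤ 49 ∧ 32 ≤ fy k ∧
    one fx fy ih mask acc k = ih (Nat.xor mask (Nat.shiftLeft 1 k))
      (Nat.lor acc (Nat.shiftLeft 1 (fy k * 18 + fx k - 608))) := by
  unfold one at h ⊢
  cases hc : (and (Nat.ble 32 (fx k)) (and (Nat.ble (fx k) 49) (Nat.ble 32 (fy k))))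
  · rw [hc, cond_false] at h
    exact absurd tb_poison h
  · rw [cond_true]
    simp only [Bool.and_eq_true, Nat.ble_eq] at hc
    exact ⟨hc.1, hc.2.1, hc.2.2, rfl⟩

lemma trr_spec (fx fy : Nat → Nat) (fuel mask acc : Nat)
    (h : ¬ (trr fx fy fuel mask acc).testBit 600) :
    (∀ j, acc.testBit j → (trr fx fy fuel mask acc).testBit j) ∧
    ∀ i, mask.testBit i → 32 ≤ fx i ∧ fx i ≤ 49 ∧ 32 ≤ fy i ∧
      (trr fx fy fuel mask acc).testBit (fy i * 18 + fx i - 608) := by
  induction fuel generalizing mask acc with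
  | zero =>
    rw [trr_zero] at h
    exact absurd tb_poison h
  | succ f ih =>
    rw [trr_succ] at h ⊢
    cases hm : Nat.beq mask 0
    · rw [hm, cond_false] at h
      rw [cond_false]
      generalize low mask = k at h ⊢
      obtain ⟨c1, c2, c3, c4⟩ := one_spec _ _ _ _ _ _ h
      rw [c4] at h ⊢
      obtain ⟨i1, i2⟩ := ih _ _ h
      refine ⟨fun j hj => i1 j ?_, fun i hi => ?_⟩
      · rw [tb_lor, hj, Bool.true_or]
      · by_cases hik : k = i
        · subst hik
          refine ⟨c1, c2, c3, i1 _ ?_⟩
          rw [tb_lor, tb_one, decide_eq_true rfl, Bool.or_true]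
        · apply i2
          rw [tb_xor, tb_one, hi, decide_eq_false hik]
          rfl
    · rw [cond_true]
      have : mask = 0 := Nat.eq_of_beq_eq_true hm
      subst this
      exact ⟨fun _ h => h, fun i hi => by simp at hi⟩

def fX (sw fl : Bool) (o : Nat) : Nat → Nat :=
  cond sw (cond fl (fun i => Nat.sub o (Nat.div i 18)) (fun i => Nat.add o (Nat.div i 18)))
    (cond fl (fun i => Nat.sub o (Nat.mod i 18)) (fun i => Nat.add o (Nat.mod i 18)))

def hmap (sw f1 f2 : Bool) (ox oy : Nat) (p : ℤ × ℤ) : ℤ × ℤ :=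
  ((ox : ℤ) - 32, (oy : ℤ) - 32) + signedPerm (cond f1 (-1) 1) (cond f2 (-1) 1) sw p

lemma good_hmap (sw f1 f2 : Bool) (ox oy : Nat) : Good (hmap sw f1 f2 ox oy) :=
  ⟨_, _, _, sw, by cases f1 <;> simp, by cases f2 <;> simp, fun _ => rfl⟩

noncomputable def tr (sw f1 f2 : Bool) (ox oy mask : Nat) : Nat :=
  trr (fX sw f1 ox) (fX (not sw) f2 oy) 400 mask 0

lemma tr_spec (sw f1 f2 : Bool) (ox oy mask : Nat) (h : ¬ (tr sw f1 f2 ox oy mask).testBit 600)
    (i : Nat) (hi : mask.testBit i) :
    ∃ j, (tr sw f1 f2 ox oy mask).testBit j ∧ cell j = hmap sw f1 f2 ox oy (cell i) := by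
  obtain ⟨a, b, c, d⟩ := (trr_spec _ _ _ _ _ h).2 i hi
  refine ⟨_, d, ?_⟩
  have e1 : ∀ x y : Nat, Nat.sub x y = x - y := fun _ _ => rfl
  have e2 : ∀ x y : Nat, Nat.add x y = x + y := fun _ _ => rfl
  have e3 : ∀ x y : Nat, Nat.div x y = x / y := fun _ _ => rfl
  have e4 : ∀ x y : Nat, Nat.mod x y = x % y := fun _ _ => rfl
  cases sw <;> cases f1 <;> cases f2 <;>
    simp only [fX, cond_true, cond_false, Bool.not_true, Bool.not_false, e1, e2, e3, e4] at a b c ⊢ <;>
    simp only [cell, hmap, signedPerm, cond_true, cond_false, Prod.ext_iff, Prod.fst_add,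
      Prod.snd_add, if_true, if_false, Bool.false_eq_true] <;> constructor <;> omega

def dep (x : Nat) : Nat := Nat.mod x 64
def mov (x : Nat) : Nat := Nat.mod (Nat.shiftRight x 6) 512
def cor (x : Nat) : Nat := Nat.mod (Nat.shiftRight x 15) (Nat.shiftLeft 1 306)
def zon (x : Nat) : Nat := Nat.mod (Nat.shiftRight x 321) (Nat.shiftLeft 1 306)
def kds (x : Nat) : Nat := Nat.shiftRight x 627
def bit (k i : Nat) : Bool := Nat.beq (Nat.mod (Nat.shiftRight k i) 2) 1

/-- placement of a mask according to the code `k`. -/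
noncomputable def plc (k mask : Nat) : Nat :=
  cond (bit k 14) mask (tr (bit k 15) (bit k 16) (bit k 17) (Nat.mod (Nat.shiftRight k 18) 128)
    (Nat.mod (Nat.shiftRight k 25) 128) mask)

lemma plc_spec (k : Nat) : ∃ h, Good h ∧ ∀ mask, ¬ (plc k mask).testBit 600 →
    ∀ i, mask.testBit i → ∃ j, (plc k mask).testBit j ∧ cell j = h (cell i) := by
  unfold plc
  cases bit k 14
  · exact ⟨_, good_hmap _ _ _ _ _, fun mask h i hi => tr_spec _ _ _ _ _ _ h i hi⟩
  · exact ⟨id, good_id, fun mask _ i hi => ⟨i, hi, rfl⟩⟩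

noncomputable def kid1 (d cm cz : Nat) (ih : Nat → Bool) (k y z' I : Nat) : Bool :=
  and (Nat.blt (dep y) d) (and (sub (plc k (cor y)) cm) (and (sub z' cz) (ih (Nat.land I z'))))

noncomputable def kid2 (d cm cz : Nat) (ih : Nat → Bool) (k y I : Nat) : Bool :=
  kid1 d cm cz ih k y (plc k (zon y)) I

noncomputable def loop (t : T) (d cm cz : Nat) (fuel : Nat) : Nat → Nat → Bool :=
  Nat.rec (fun _ _ => false) (fun _ ih ks I => cond (Nat.beq ks 0) (sub I cm)
    (kid2 d cm cz (ih (Nat.shiftRight ks 32)) ks (t.get (Nat.mod ks 16384)) I)) fuel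

noncomputable def chk1 (t : T) (d cm cz ks : Nat) : Bool :=
  cond (Nat.beq ks 0) (sub 6291471 cm) (loop t d cm cz 100 ks cz)

noncomputable def chk (t : T) (x : Nat) : Bool :=
  and (Nat.ble 1 (dep x)) (and (sub (Nat.shiftLeft 1 (mov x)) (zon x))
    (chk1 t (dep x) (Nat.lor (cor x) (Nat.shiftLeft 1 (mov x))) (Nat.lor (cor x) (zon x)) (kds x)))

lemma small (x : Nat) : ¬ (Nat.mod x (Nat.shiftLeft 1 306)).testBit 600 := by
  show ¬ (x % (1 <<< 306)).testBit 600 = true
  rw [Nat.one_shiftLeft, Nat.testBit_mod_two_pow]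
  simp

lemma loop_spec (t : T) (n d c z m : Nat) (hc : ¬ c.testBit 600) (hz : ¬ z.testBit 600)
    (hm : m ≠ 600) (hd : d ≤ n + 1)
    (IH : ∀ i, dep (t.get i) ≤ n → Card n (cor (t.get i)) (zon (t.get i)))
    (fuel ks I : Nat)
    (h : loop t d (Nat.lor c (Nat.shiftLeft 1 m)) (Nat.lor c z) fuel ks I = true) :
    (ks ≠ 0 → ∃ z', Kid n c z m z') ∧
    ∀ j, I.testBit j → ¬ (c.testBit j ∨ j = m) → ∃ z', Kid n c z m z' ∧ ¬ z'.testBit j := by
  have hcm : ∀ j, (Nat.lor c (Nat.shiftLeft 1 m)).testBit j → (c.testBit j ∨ j = m) := by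
    intro j hj
    rw [tb_lor, tb_one] at hj
    simp only [Bool.or_eq_true, decide_eq_true_eq] at hj
    exact hj.imp id Eq.symm
  have hcz : ∀ j, (Nat.lor c z).testBit j → (c.testBit j ∨ z.testBit j) := by
    intro j hj
    rw [tb_lor] at hj
    simpa using hj
  induction fuel generalizing ks I with
  | zero => exact absurd h (by simp [loop])
  | succ f ih =>
    have e : loop t d (Nat.lor c (Nat.shiftLeft 1 m)) (Nat.lor c z) (f + 1) ks I =
        cond (Nat.beq ks 0) (sub I (Nat.lor c (Nat.shiftLeft 1 m)))
        (kid2 d (Nat.lor c (Nat.shiftLeft 1 m)) (Nat.lor c z)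
          (loop t d (Nat.lor c (Nat.shiftLeft 1 m)) (Nat.lor c z) f (Nat.shiftRight ks 32)) ks
          (t.get (Nat.mod ks 16384)) I) := rfl
    rw [e] at h
    cases hk : Nat.beq ks 0
    · rw [hk] at h
      simp only [cond_false, kid2, kid1, Bool.and_eq_true, Nat.blt_eq] at h
      obtain ⟨h1, h2, h3, h4⟩ := h
      obtain ⟨g, hg, hp⟩ := plc_spec ks
      have K : Kid n c z m (plc ks (zon (t.get (Nat.mod ks 16384)))) := by
        refine ⟨g, _, _, hg, IH (Nat.mod ks 16384) (by omega), ?_, ?_, ?_⟩
        · intro i hi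
          obtain ⟨j, hj, e⟩ := hp _ (fun hh => by
            rcases hcm _ (sub_spec h2 _ hh) with h | h
            · exact hc h
            · exact hm h.symm) i hi
          exact ⟨j, hcm _ (sub_spec h2 _ hj), e⟩
        · intro i hi
          exact hp _ (fun hh => by
            rcases hcz _ (sub_spec h3 _ hh) with h | h
            · exact hc h
            · exact hz h) i hi
        · intro j hj
          exact hcz _ (sub_spec h3 _ hj)
      refine ⟨fun _ => ⟨_, K⟩, fun j hj hn => ?_⟩
      by_cases hb : (plc ks (zon (t.get (Nat.mod ks 16384)))).testBit j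
      · refine (ih _ _ h4).2 j ?_ hn
        rw [tb_land, hj, hb]; rfl
      · exact ⟨_, K, hb⟩
    · rw [hk] at h
      simp only [cond_true] at h
      refine ⟨fun h0 => absurd (Nat.eq_of_beq_eq_true hk) h0, fun j hj hn => ?_⟩
      exact absurd (hcm _ (sub_spec h _ hj)) hn

theorem cards (t : T) (h : T.all (chk t) t = true) (n : Nat) :
    ∀ i, dep (t.get i) ≤ n → Card n (cor (t.get i)) (zon (t.get i)) := by
  induction n with
  | zero =>
    intro i hi
    have := T.all_get h i
    simp only [chk, Bool.and_eq_true, Nat.ble_eq] at this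
    omega
  | succ n ih =>
    intro i hi
    have := T.all_get h i
    generalize t.get i = x at this hi
    simp only [chk, Bool.and_eq_true, Nat.ble_eq] at this
    obtain ⟨-, h2, h3⟩ := this
    have hm : (zon x).testBit (mov x) := sub_spec h2 _ (by rw [tb_one]; simp)
    unfold chk1 at h3
    cases hk : Nat.beq (kds x) 0
    · rw [hk] at h3
      simp only [cond_false] at h3
      have hm2 : mov x ≠ 600 := by
        have : mov x < 512 := Nat.mod_lt _ (by norm_num)
        omega
      have := loop_spec t n (dep x) (cor x) (zon x) (mov x) (small _) (small _) hm2 hi ih _ _ _ h3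
      refine card_step hm (this.1 (Nat.ne_of_beq_eq_false hk)) (fun j hj hn => this.2 j ?_ hn)
      rw [tb_lor]
      simpa using hj
    · rw [hk] at h3
      simp only [cond_true] at h3
      refine card_base hm (fun i hi => ?_)
      have h6 : (6291471 : Nat).testBit i = true := by
        simp only [List.mem_cons, List.not_mem_nil, or_false] at hi
        rcases hi with rfl | rfl | rfl | rfl | rfl | rfl <;> decide
      have := sub_spec h3 _ h6
      rw [tb_lor, tb_one] at this
      simp only [Bool.or_eq_true, decide_eq_true_eq] at this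
      exact this.imp id Eq.symm

theorem win_of (t : T) (h : T.all (chk t) t = true) (i n : Nat) (hd : Nat.ble (dep (t.get i)) n = true)
    (hc : Nat.beq (cor (t.get i)) 0 = true) : Win n ∅ ∅ := by
  have := cards t h n i (Nat.le_of_ble_eq_true hd)
  rw [Nat.eq_of_beq_eq_true hc] at this
  exact this id good_id ∅ ∅ (by simp) (by simp)

end Vale.Agent.P062
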