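import Mathlib

namespace Vale.Agent.P062

/-- The hexomino Snaky. -/
def snaky : Finset (ℤ × ℤ) := {(0, 0), (1, 0), (2, 0), (3, 0), (3, 1), (4, 1)}

/-- The action on cells of the signed permutation matrix with signs `e₁, e₂`, diagonal
when `sw = false` and antidiagonal when `sw = true`. -/
def signedPerm (e₁ e₂ : ℤ) (sw : Bool) (p : ℤ × ℤ) : ℤ × ℤ :=
  if sw then (e₁ * p.2, e₂ * p.1) else (e₁ * p.1, e₂ * p.2)

/-- `M` contains every cell of some allowed copy `t + R(S)` of Snaky. -/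
def OwnsCopy (M : Finset (ℤ × ℤ)) : Prop :=
  ∃ (t : ℤ × ℤ) (e₁ e₂ : ℤ) (sw : Bool), (e₁ = 1 ∨ e₁ = -1) ∧ (e₂ = 1 ∨ e₂ = -1) ∧
    ∀ p ∈ snaky, t + signedPerm e₁ e₂ sw p ∈ M

/-- The cells Breaker has claimed after `n` Breaker turns, `β k` being claimed at turn `k`. -/
def breakerCells (β : ℕ → ℤ × ℤ) (n : ℕ) : Finset (ℤ × ℤ) := (Finset.range n).image β

/-- The cells Maker has claimed after `n` Maker turns when Maker moves first on the empty board,
follows `σ` (Maker's cells, Breaker's cells ↦ cell to claim) and Breaker plays `β`. -/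
def makerCells (σ : Finset (ℤ × ℤ) → Finset (ℤ × ℤ) → ℤ × ℤ) (β : ℕ → ℤ × ℤ) :
    ℕ → Finset (ℤ × ℤ)
  | 0 => ∅
  | n + 1 => insert (σ (makerCells σ β n) (breakerCells β n)) (makerCells σ β n)

end Vale.Agent.P062
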