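import Vale.Agent.P062.Defs

namespace Vale.Agent.P062

/-- Maker to move wins within `n` moves. -/
def Win : ℕ → Finset (ℤ × ℤ) → Finset (ℤ × ℤ) → Prop
  | 0, _, _ => False
  | n + 1, M, B => ∃ c, c ∉ M ∧ c ∉ B ∧ (OwnsCopy (insert c M) ∨
      ∀ b, b ∉ insert c M → b ∉ B → Win n (insert c M) (insert b B))

lemma fresh (M B : Finset (ℤ × ℤ)) : ∃ c, c ∉ M ∧ c ∉ B := by
  obtain ⟨c, hc⟩ := Infinite.exists_notMem_finset (M ∪ B)
  exact ⟨c, by simpa [not_or] using hc⟩

lemma OwnsCopy.mono {M M' : Finset (ℤ × ℤ)} (h : OwnsCopy M) (hs : M ⊆ M') : OwnsCopy M' := by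
  obtain ⟨t, e₁, e₂, sw, h1, h2, h3⟩ := h
  exact ⟨t, e₁, e₂, sw, h1, h2, fun p hp => hs (h3 p hp)⟩

open Classical in
noncomputable def strat (D : ℕ) (M B : Finset (ℤ × ℤ)) : ℤ × ℤ :=
  if h : ∃ c, c ∉ M ∧ c ∉ B ∧ (OwnsCopy (insert c M) ∨
      ∀ b, b ∉ insert c M → b ∉ B → Win (D - M.card - 1) (insert c M) (insert b B))
  then h.choose else (fresh M B).choose

lemma strat_legal (D : ℕ) (M B : Finset (ℤ × ℤ)) : strat D M B ∉ M ∧ strat D M B ∉ B := by
  unfold strat
  split_ifs with h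
  · exact ⟨h.choose_spec.1, h.choose_spec.2.1⟩
  · exact (fresh M B).choose_spec

lemma card_maker (D : ℕ) (β : ℕ → ℤ × ℤ) (n : ℕ) : (makerCells (strat D) β n).card = n := by
  induction n with
  | zero => simp [makerCells]
  | succ n ih => rw [makerCells, Finset.card_insert_of_notMem (strat_legal D _ _).1, ih]

lemma breaker_succ (β : ℕ → ℤ × ℤ) (n : ℕ) :
    breakerCells β (n + 1) = insert (β n) (breakerCells β n) := by
  simp [breakerCells, Finset.range_add_one]

lemma strat_wins (D : ℕ) (hD : Win (D + 1) ∅ ∅) (β : ℕ → ℤ × ℤ)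
    (hβ : ∀ n < D, β n ∉ makerCells (strat (D + 1)) β (n + 1) ∧ β n ∉ breakerCells β n) :
    OwnsCopy (makerCells (strat (D + 1)) β (D + 1)) := by
  have key : ∀ n ≤ D, OwnsCopy (makerCells (strat (D + 1)) β (n + 1)) ∨
      ∀ b, b ∉ makerCells (strat (D + 1)) β (n + 1) → b ∉ breakerCells β n →
        Win (D - n) (makerCells (strat (D + 1)) β (n + 1)) (insert b (breakerCells β n)) := by
    intro n
    induction n with
    | zero =>
      intro _
      have h0 : breakerCells β 0 = ∅ := by simp [breakerCells]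
      have h : ∃ c, c ∉ (∅ : Finset (ℤ × ℤ)) ∧ c ∉ (∅ : Finset (ℤ × ℤ)) ∧
          (OwnsCopy (insert c ∅) ∨ ∀ b, b ∉ insert c (∅ : Finset (ℤ × ℤ)) → b ∉ (∅ : Finset (ℤ × ℤ)) →
            Win (D + 1 - (∅ : Finset (ℤ × ℤ)).card - 1) (insert c ∅) (insert b ∅)) := by
        simpa [Win] using hD
      have hs : strat (D + 1) ∅ ∅ = h.choose := by unfold strat; rw [dif_pos h]
      have := h.choose_spec.2.2
      simp only [makerCells, h0, hs]
      simpa using this
    | succ n ih =>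
      intro hn
      rcases ih (by omega) with h | h
      · left
        exact h.mono (by rw [makerCells.eq_2 _ _ (n + 1)]; exact Finset.subset_insert _ _)
      · have hw := h (β n) (hβ n (by omega)).1 (hβ n (by omega)).2
        rw [← breaker_succ] at hw
        have e : D - n = (D - (n + 1)) + 1 := by omega
        rw [e, Win] at hw
        have e2 : D + 1 - (makerCells (strat (D + 1)) β (n + 1)).card - 1 = D - (n + 1) := by
          rw [card_maker]; omega
        rw [← e2] at hw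
        have hs : strat (D + 1) (makerCells (strat (D + 1)) β (n + 1)) (breakerCells β (n + 1))
            = hw.choose := by
          rw [strat.eq_1 (D + 1) (makerCells (strat (D + 1)) β (n + 1)), dif_pos hw]
        have := hw.choose_spec.2.2
        rw [makerCells.eq_2 _ _ (n + 1), hs, ← e2]
        exact this
  rcases key D le_rfl with h | h
  · exact h
  · obtain ⟨b, hb1, hb2⟩ := fresh (makerCells (strat (D + 1)) β (D + 1)) (breakerCells β D)
    have := h b hb1 hb2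
    simp [Win] at this

/-- Symmetries of the board. -/
def Good (g : ℤ × ℤ → ℤ × ℤ) : Prop :=
  ∃ (t : ℤ × ℤ) (e₁ e₂ : ℤ) (sw : Bool), (e₁ = 1 ∨ e₁ = -1) ∧ (e₂ = 1 ∨ e₂ = -1) ∧
    ∀ p, g p = t + signedPerm e₁ e₂ sw p

lemma Good.inj {g} (h : Good g) : Function.Injective g := by
  obtain ⟨t, e₁, e₂, sw, h1, h2, h3⟩ := h
  intro p q hpq
  rw [h3, h3] at hpq
  have := add_left_cancel hpq
  obtain ⟨p1, p2⟩ := p
  obtain ⟨q1, q2⟩ := q
  rcases h1 with rfl | rfl <;> rcases h2 with rfl | rfl <;> cases sw <;>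
    simp [signedPerm] at this ⊢ <;> omega

lemma Good.comp {g h} (hg : Good g) (hh : Good h) : Good (g ∘ h) := by
  obtain ⟨t, e₁, e₂, sw, h1, h2, h3⟩ := hg
  obtain ⟨t', e₁', e₂', sw', h1', h2', h3'⟩ := hh
  refine ⟨t + signedPerm e₁ e₂ sw t', e₁ * (if sw then e₂' else e₁'), e₂ * (if sw then e₁' else e₂'),
    xor sw sw', ?_, ?_, ?_⟩
  · rcases h1 with rfl | rfl <;> rcases h1' with rfl | rfl <;> rcases h2' with rfl | rfl <;>
      cases sw <;> simp
  · rcases h2 with rfl | rfl <;> rcases h1' with rfl | rfl <;> rcases h2' with rfl | rfl <;>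
      cases sw <;> simp
  · intro p
    simp only [Function.comp, h3, h3']
    cases sw <;> cases sw' <;> simp [signedPerm, Prod.ext_iff] <;> constructor <;> ring

lemma good_id : Good id := ⟨0, 1, 1, false, by simp, by simp, fun p => by simp [signedPerm]⟩

/-- The cell coded by a bit index. -/
def cell (i : ℕ) : ℤ × ℤ := (((i % 18 : ℕ) : ℤ), ((i / 18 : ℕ) : ℤ))

lemma cell_inj : Function.Injective cell := by
  intro i j h
  simp only [cell, Prod.mk.injEq, Nat.cast_inj] at h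
  omega

/-- A winning card: core `c`, zone `z` (bit masks). -/
def Card (n c z : ℕ) : Prop :=
  ∀ g, Good g → ∀ M B : Finset (ℤ × ℤ), (∀ i, c.testBit i → g (cell i) ∈ M) →
    (∀ i, (c.testBit i ∨ z.testBit i) → g (cell i) ∉ B) → Win n M B

lemma first_move {c z m : ℕ} (hm : z.testBit m) {g : ℤ × ℤ → ℤ × ℤ} {M B : Finset (ℤ × ℤ)}
    (hM : ∀ i, c.testBit i → g (cell i) ∈ M)
    (hB : ∀ i, (c.testBit i ∨ z.testBit i) → g (cell i) ∉ B) :
    ∃ x, x ∉ M ∧ x ∉ B ∧ ∀ i, (c.testBit i ∨ i = m) → g (cell i) ∈ insert x M := by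
  by_cases h : g (cell m) ∈ M
  · obtain ⟨x, h1, h2⟩ := fresh M B
    refine ⟨x, h1, h2, ?_⟩
    rintro i (hi | rfl)
    · exact Finset.mem_insert_of_mem (hM i hi)
    · exact Finset.mem_insert_of_mem h
  · refine ⟨g (cell m), h, hB m (Or.inr hm), ?_⟩
    rintro i (hi | rfl)
    · exact Finset.mem_insert_of_mem (hM i hi)
    · exact Finset.mem_insert_self _ _

lemma card_base {n c z m : ℕ} (hm : z.testBit m)
    (h : ∀ i ∈ [0, 1, 2, 3, 21, 22], c.testBit i ∨ i = m) : Card (n + 1) c z := by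
  intro g hg M B hM hB
  obtain ⟨x, h1, h2, h3⟩ := first_move hm hM hB
  refine ⟨x, h1, h2, Or.inl ?_⟩
  obtain ⟨t, e₁, e₂, sw, a1, a2, a3⟩ := hg
  refine ⟨t, e₁, e₂, sw, a1, a2, ?_⟩
  intro p hp
  rw [← a3]
  simp only [snaky, Finset.mem_insert, Finset.mem_singleton] at hp
  rcases hp with rfl | rfl | rfl | rfl | rfl | rfl
  · exact h3 0 (h 0 (by simp))
  · exact h3 1 (h 1 (by simp))
  · exact h3 2 (h 2 (by simp))
  · exact h3 3 (h 3 (by simp))
  · exact h3 21 (h 21 (by simp))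
  · exact h3 22 (h 22 (by simp))

/-- A placed child card. -/
def Kid (n c z m z' : ℕ) : Prop :=
  ∃ h kc kz, Good h ∧ Card n kc kz ∧
    (∀ i, kc.testBit i → ∃ j, (c.testBit j ∨ j = m) ∧ cell j = h (cell i)) ∧
    (∀ i, kz.testBit i → ∃ j, z'.testBit j ∧ cell j = h (cell i)) ∧
    (∀ j, z'.testBit j → c.testBit j ∨ z.testBit j)

lemma card_step {n c z m : ℕ} (hm : z.testBit m) (hne : ∃ z', Kid n c z m z')
    (hall : ∀ j, (c.testBit j ∨ z.testBit j) → ¬ (c.testBit j ∨ j = m) →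
      ∃ z', Kid n c z m z' ∧ ¬ z'.testBit j) : Card (n + 1) c z := by
  intro g hg M B hM hB
  obtain ⟨x, h1, h2, h3⟩ := first_move hm hM hB
  refine ⟨x, h1, h2, Or.inr ?_⟩
  intro b hb1 hb2
  have : ∃ z', Kid n c z m z' ∧ ∀ j, z'.testBit j → g (cell j) ≠ b := by
    by_cases hb : ∃ j, (c.testBit j ∨ z.testBit j) ∧ g (cell j) = b
    · obtain ⟨j, hj, rfl⟩ := hb
      obtain ⟨z', hk, hz⟩ := hall j hj (fun hc => hb1 (h3 j hc))
      refine ⟨z', hk, fun j' hj' he => hz ?_⟩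
      rwa [← cell_inj (hg.inj he)]
    · obtain ⟨z', hk⟩ := hne
      refine ⟨z', hk, fun j hj he => hb ⟨j, ?_, he⟩⟩
      obtain ⟨_, _, _, _, _, _, _, h5⟩ := hk
      exact h5 j hj
  obtain ⟨z', ⟨h, kc, kz, hh, hc, k1, k2, k3⟩, hz⟩ := this
  refine hc (g ∘ h) (hg.comp hh) _ _ ?_ ?_
  · intro i hi
    obtain ⟨j, hj, e⟩ := k1 i hi
    simp only [Function.comp, ← e]
    exact h3 j hj
  · rintro i (hi | hi)
    · obtain ⟨j, hj, e⟩ := k1 i hi
      simp only [Function.comp, ← e, Finset.mem_insert, not_or]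
      refine ⟨fun he => hb1 (he ▸ h3 j hj), hB j ?_⟩
      rcases hj with hj | rfl
      · exact Or.inl hj
      · exact Or.inr hm
    · obtain ⟨j, hj, e⟩ := k2 i hi
      simp only [Function.comp, ← e, Finset.mem_insert, not_or]
      exact ⟨hz j hj, hB j (k3 j hj)⟩

end Vale.Agent.P062
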