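import Vale.Agent.P062.Tree

namespace Vale.Agent.P062

theorem ok0 : T.all (chk tree) t0 = true := by decide +kernel

theorem ok1 : T.all (chk tree) t1 = true := by decide +kernel

theorem ok2 : T.all (chk tree) t2 = true := by decide +kernel

theorem ok3 : T.all (chk tree) t3 = true := by decide +kernel

theorem ok4 : T.all (chk tree) t4 = true := by decide +kernel

theorem ok5 : T.all (chk tree) t5 = true := by decide +kernel

theorem ok6 : T.all (chk tree) t6 = true := by decide +kernel

theorem ok7 : T.all (chk tree) t7 = true := by decide +kernel

end Vale.Agent.P062
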