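import Vale.Agent.P062.Data0
import Vale.Agent.P062.Data1
import Vale.Agent.P062.Data2
import Vale.Agent.P062.Data3

namespace Vale.Agent.P062

noncomputable def tree : T :=
  (T.n (T.n (T.n (T.n (T.n t0 t16) (T.n t8 t24)) (T.n (T.n t4 t20) (T.n t12 t28))) (T.n (T.n (T.n t2 t18) (T.n t10 t26)) (T.n (T.n t6 t22) (T.n t14 t30)))) (T.n (T.n (T.n (T.n t1 t17) (T.n t9 t25)) (T.n (T.n t5 t21) (T.n t13 t29))) (T.n (T.n (T.n t3 t19) (T.n t11 t27)) (T.n (T.n t7 t23) (T.n t15 t31)))))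

end Vale.Agent.P062
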